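import Vale.Agent.P356.Final

open Vale.Agent.P356 in
/-- Exact area law for gapped ground states across every cut whose crossing terms commute with the
terms not crossing it; in particular for commuting Hamiltonians and every region. -/
theorem Vale.Agent.Results.P356.CommutingAreaLaw.result (q R L : ℕ) (hq : 2 ≤ q) (_hL : 2 ≤ L)
    (h : Finset (Site L) → Matrix (Site L → Fin q) (Site L → Fin q) ℂ) (hloc : IsLocalFamily h)
    (Δ E₀ : ℝ) (hΔ : 0 < Δ) (Ω : (Site L → Fin q) → ℂ)
    (hgap : HasSpectralGap (hamiltonian R h) Δ E₀ Ω) (A : Finset (Site L))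
    (hcomm : ∀ X ∈ allowedSets L R, ∀ Y ∈ allowedSets L R,
      Crosses X A → ¬ Crosses Y A → Commute (h X) (h Y)) :
    entanglementEntropy Ω A ≤
      2 * (2 * (R : ℝ) + 1) ^ 2 * Real.log q * ((edgeBoundary A).card : ℝ) :=
  entropy_le_of_commuting hq h hloc hΔ hgap A hcomm
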